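import Mathlib
import Vale.Agent.P333.Bdl.B2
import Vale.Agent.P333.R2.H99.AmpDef

/-!
The reduction from E3-LIN2 to the shortest common superstring problem with amplifiers whose
expansion property has a factor `p / q` (P333).
-/

namespace Vale.Agent.P333.R2.H141

open Vale.Agent.P333 Vale.Agent.P333.R2.H99 Finset

section

variable {Q V : Type} [Fintype Q] [DecidableEq Q] [Fintype V] [DecidableEq V]
  (vr : Q → Fin 3 → V) (rhs : Q → Bool) (t : ℕ) (k : V → ℕ)
  (oc : ∀ v, Fin (k v) ≃ {p : Q × Fin 3 // vr p.1 p.2 = v})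
  {β : ℕ} (am0 : ∀ v, Equiv.Perm (Fin (k v) × Fin t))
  (am1 : ∀ v, Equiv.Perm ((Fin (k v) × Fin t) × Fin (β + 1)))
  (tr : Equiv.Perm {e : Q × Fin t // rhs e.1 = false})

/-- The lower bound for all common superstrings, with the factor `p / q`. -/
theorem red_lower {p q : ℕ} (hqp : q ≤ p) (hβ : 1 ≤ β) (hinj : ∀ a, Function.Injective (vr a))
    (ε : ℝ)
    (hE : ∀ v, ExpandsK p q (k v) t β ε (am0 v) (am1 v))
    (hC : ∀ v, FewCoinc (k v) t β ε (am0 v) (am1 v))
    (T : List (Letter (Q × Fin t) β))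
    (hT : ∀ w : (redData vr rhs t k oc am0 am1 tr).WF,
      (redData vr rhs t k oc am0 am1 tr).str w <:+: T) :
    ∃ a : V → Bool, (p : ℝ) * ((redData vr rhs t k oc am0 am1 tr).cost : ℝ)
        + q * (t * nviol vr rhs a)
      ≤ p * T.length + (5 * p + 1) * ε * ∑ v, ((k v : ℝ) * t) := by
  classical
  obtain ⟨m, x, hmx⟩ := (redData vr rhs t k oc am0 am1 tr).lower hβ T hT
  obtain ⟨a, ha⟩ := Finite.exists_min (psi vr rhs t k oc x)
  refine ⟨a, ?_⟩
  rw [rises0_split vr rhs t k oc am0 am1 tr m x, rises1_split vr rhs t k oc am0 am1 tr m,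
    bad_split vr rhs t k oc am0 am1 tr] at hmx
  have hcount := viol_count vr rhs t k oc am0 am1 tr x a
  have hv : ∀ v, (q : ℝ) * ((univ.filter (fun c : Fin (k v) × Fin t => xv vr t k oc x v c ≠ a v ∧
        viol vr rhs a (occQ vr k oc v c.1) = true)).card : ℝ)
      ≤ p * (rises0 (am0 v) (mv vr t k oc m v) (xv vr t k oc x v)
        + rises1 (am1 v) (mv vr t k oc m v)) + ε * (k v * t) := by
    intro v
    have hopt := opt_cond vr rhs t k oc x hinj a ha v
    let U : Finset (Fin (k v)) :=
      univ.filter (fun i : Fin (k v) => viol vr rhs a (occQ vr k oc v i) = true)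
    cases hav : a v
    · have h1 := hE v (mv vr t k oc m v) (xv vr t k oc x v) U (by
        have : flips vr t k oc x a v = univ.filter (fun c => xv vr t k oc x v c = true) := by
          unfold flips
          rw [hav]
          ext c; simp only [ne_eq, Bool.not_eq_false, mem_filter, mem_univ, true_and]
        rw [this] at hopt
        exact hopt)
      have h2 : (univ.filter (fun c : Fin (k v) × Fin t => xv vr t k oc x v c ≠ false ∧
        viol vr rhs a (occQ vr k oc v c.1) = true))
        = univ.filter (fun c => xv vr t k oc x v c = true ∧ c.1 ∈ U) := by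
        ext c; simp only [ne_eq, Bool.not_eq_false, mem_filter, mem_univ, true_and, U]
      rw [h2]
      exact h1
    · have h1 := hE v (fun b => !(mv vr t k oc m v b)) (fun c => !(xv vr t k oc x v c)) U (by
        have : flips vr t k oc x a v = univ.filter (fun c => (!(xv vr t k oc x v c)) = true) := by
          unfold flips
          rw [hav]
          ext c; simp only [ne_eq, Bool.not_eq_true, mem_filter, mem_univ, true_and,
            Bool.not_eq_eq_eq_not, Bool.not_true]
        rw [this] at hopt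
        exact hopt)
      have h2 : (univ.filter (fun c : Fin (k v) × Fin t => xv vr t k oc x v c ≠ true ∧
        viol vr rhs a (occQ vr k oc v c.1) = true))
        = univ.filter (fun c => (!(xv vr t k oc x v c)) = true ∧ c.1 ∈ U) := by
        ext c; simp only [ne_eq, Bool.not_eq_true, mem_filter, mem_univ, true_and,
          Bool.not_eq_eq_eq_not, Bool.not_true, U]
      rw [h2]
      rw [rises0_compl, rises1_compl] at h1
      exact h1
  have hsum : q * (∑ v, ((univ.filter (fun c : Fin (k v) × Fin t => xv vr t k oc x v c ≠ a v ∧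
        viol vr rhs a (occQ vr k oc v c.1) = true)).card : ℝ))
      ≤ p * (∑ v, (rises0 (am0 v) (mv vr t k oc m v) (xv vr t k oc x v) : ℝ)
        + ∑ v, (rises1 (am1 v) (mv vr t k oc m v) : ℝ)) + ε * ∑ v, ((k v : ℝ) * t) := by
    rw [Finset.mul_sum, Finset.mul_sum, ← Finset.sum_add_distrib, Finset.mul_sum,
      ← Finset.sum_add_distrib]
    exact Finset.sum_le_sum (fun v _ => hv v)
  have hbad : (∑ v, ((univ.filter (fun b => am1 v b = s0 (am0 v) b ∨
        am1 v (s0 (am0 v) b) = b)).card : ℝ)) ≤ ε * ∑ v, ((k v : ℝ) * t) := by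
    rw [Finset.mul_sum]
    exact Finset.sum_le_sum (fun v _ => hC v)
  have h1 : ((redData vr rhs t k oc am0 am1 tr).cost : ℝ)
      + (∑ v, (rises0 (am0 v) (mv vr t k oc m v) (xv vr t k oc x v) : ℝ))
      + (∑ v, (rises1 (am1 v) (mv vr t k oc m v) : ℝ))
      + ((redData vr rhs t k oc am0 am1 tr).uns x : ℝ)
      ≤ T.length + 5 * (∑ v, ((univ.filter (fun b => am1 v b = s0 (am0 v) b ∨
        am1 v (s0 (am0 v) b) = b)).card : ℝ)) := by
    exact_mod_cast hmx
  have h2 : (t : ℝ) * nviol vr rhs a ≤ ((redData vr rhs t k oc am0 am1 tr).uns x : ℝ)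
      + ∑ v, ((univ.filter (fun c : Fin (k v) × Fin t => xv vr t k oc x v c ≠ a v ∧
        viol vr rhs a (occQ vr k oc v c.1) = true)).card : ℝ) := by
    exact_mod_cast hcount
  have hq0 : (0 : ℝ) ≤ q := Nat.cast_nonneg q
  have hp0 : (0 : ℝ) ≤ p := Nat.cast_nonneg p
  have hqp' : (q : ℝ) ≤ p := by exact_mod_cast hqp
  have hu0 : (0 : ℝ) ≤ ((redData vr rhs t k oc am0 am1 tr).uns x : ℝ) := Nat.cast_nonneg _
  have h3 := mul_le_mul_of_nonneg_left h2 hq0
  have h4 := mul_le_mul_of_nonneg_left h1 hp0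
  have h5 := mul_le_mul_of_nonneg_left hbad hp0
  have h6 := mul_le_mul_of_nonneg_right hqp' hu0
  clear hmx hcount hv h1 h2 ha
  linarith

end

/-! ### amplifiers with a factor, seen as amplifiers without expansion -/

/-- An amplifier with a factor gives an amplifier in the old sense with a large error. -/
def toAmp {p q k t β : ℕ} {ε : ℝ} (A : AmpK p q k t β ε) : Amp k t β (max ε 1) where
  e0 := A.e0
  e1 := A.e1
  expands := by
    intro m x U h
    have h1 : (Finset.univ.filter (fun c : Fin k × Fin t => x c = true ∧ c.1 ∈ U)).card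
        ≤ k * t := by
      refine (Finset.card_le_univ _).trans ?_
      simp
    have h2 : ((Finset.univ.filter (fun c : Fin k × Fin t => x c = true ∧ c.1 ∈ U)).card : ℝ)
        ≤ (k : ℝ) * t := by exact_mod_cast h1
    have h3 : (0 : ℝ) ≤ (k : ℝ) * t := by positivity
    have h4 : 1 * ((k : ℝ) * t) ≤ max ε 1 * (k * t) :=
      mul_le_mul_of_nonneg_right (le_max_right _ _) h3
    have h5 : (0 : ℝ) ≤ rises0 (rot A.e0) m x + rises1 (rot A.e1) m := by positivity
    linarith
  coinc := by
    have h := A.coinc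
    unfold FewCoinc at h ⊢
    refine h.trans (mul_le_mul_of_nonneg_right (le_max_left _ _) (by positivity))

section

variable (J : List Eqn) (tab : List (List (List Sym))) (t β : ℕ) {ε : ℝ} {p q : ℕ}
  (am : ∀ v : VV J, AmpK p q (kJ J v) t β ε)

theorem G_lower (hqp : q ≤ p)
    (htab : ∀ v : VV J, tab.getD (kJ J v) [] = tmpl (toAmp (am v))) (hβ : 1 ≤ β)
    (hdist : ∀ e ∈ J, e.1.1 ≠ e.1.2.1 ∧ e.1.1 ≠ e.1.2.2 ∧ e.1.2.1 ≠ e.1.2.2)
    (hM : 0 < J.length) (ht : 0 < t) :
    ∃ x : ℕ → Bool, (p : ℝ) * (costJ J t β : ℝ) + q * (t * violated x J)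
      ≤ p * opt (G tab t β J) + 3 * (5 * p + 1) * ε * (J.length * t) := by
  classical
  obtain ⟨T, hT, hlen⟩ := exists_opt (G tab t β J)
  have e0 : Letter (Fin J.length × Fin t) β := Letter.o (⟨0, hM⟩, ⟨0, ht⟩)
  have : Nonempty (Letter (Fin J.length × Fin t) β) := ⟨e0⟩
  let dec : ℕ → Letter (Fin J.length × Fin t) β := Function.invFun (letterCode t β)
  have hdec : ∀ s : List (Letter (Fin J.length × Fin t) β),
      (s.map (letterCode t β)).map dec = s := by
    intro s
    rw [List.map_map]
    have : dec ∘ letterCode t β = id := by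
      funext a
      exact Function.leftInverse_invFun (letterCode_inj t β) a
    rw [this, List.map_id]
  have hsup : ∀ w : (DJ J t β (fun v => toAmp (am v)) (ekJ J t)).WF,
      (DJ J t β (fun v => toAmp (am v)) (ekJ J t)).str w <:+: T.map dec := by
    intro w
    have h1 : ((DJ J t β (fun v => toAmp (am v)) (ekJ J t)).str w).map (letterCode t β) <:+: T :=
      hT _ ((mem_G J t β (fun v => toAmp (am v)) tab htab _).2 ⟨w, rfl⟩)
    have h2 := h1.map dec
    rwa [hdec] at h2
  obtain ⟨a, ha⟩ := red_lower (vrJ J) (rhsJ J) t (kJ J) (ocJ J) (fun v => rot (am v).e0)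
    (fun v => rot (am v).e1) (rot (ekJ J t)) hqp hβ (vrJ_inj J hdist) ε
    (fun v => (am v).expands) (fun v => (am v).coinc) (T.map dec) hsup
  obtain ⟨x, hx⟩ := exists_extend J a
  refine ⟨x, ?_⟩
  have h2 : ((redData (vrJ J) (rhsJ J) t (kJ J) (ocJ J) (fun v => rot (am v).e0)
    (fun v => rot (am v).e1) (rot (ekJ J t))).cost : ℕ) = costJ J t β :=
    cost_eq J t β (fun v => toAmp (am v))
  rw [h2, List.length_map, hlen] at ha
  rw [violated_eq, hx]
  have h3 : ∑ v : VV J, ((kJ J v : ℝ) * t) = 3 * (J.length * t) := by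
    rw [← Finset.sum_mul]
    have := sum_kJ J
    have h4 : (∑ v : VV J, (kJ J v : ℝ)) = 3 * J.length := by exact_mod_cast this
    rw [h4]; ring
  rw [h3] at ha
  linarith only [ha]

end

/-- the table of templates -/
noncomputable def table (p q d t β : ℕ) (ε : ℝ) : List (List (List Sym)) :=
  (List.range (d + 1)).map (fun K =>
    open Classical in if h : Nonempty (AmpK p q K t β ε) then tmpl (toAmp h.some) else [])

theorem table_getD (p q d t β : ℕ) (ε : ℝ) (K : ℕ) (hK : K ≤ d)
    (h : Nonempty (AmpK p q K t β ε)) :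
    (table p q d t β ε).getD K [] = tmpl (toAmp h.some) := by
  unfold table
  rw [List.getD_eq_getElem?_getD, List.getElem?_map, List.getElem?_range (by omega)]
  simp [h]

/-- The reduction. -/
noncomputable def Fred (p q β d t : ℕ) (ε : ℝ) (I : List Eqn) : List (List ℕ) :=
  G (table p q d t β ε) t β (dbl I)

theorem Fred_bounds (p q : ℕ) (hqp : q ≤ p) (β : ℕ) (hβ : 1 ≤ β) (d t : ℕ) (ε : ℝ) (ht : 0 < t)
    (hamp : ∀ K, 1 ≤ K → K ≤ d → Nonempty (AmpK p q K t β ε)) (I : List Eqn) (hI : Bounded d I)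
    (hne : I ≠ []) :
    (opt (Fred p q β d t ε I) ≤
      (24 * β + 58) * (I.length * t) + (6 * I.length + 1 + 2 * t * minViolated I)) ∧
    ((p * ((24 * β + 58) * (I.length * t)) + q * (2 * t * minViolated I) : ℝ)
      ≤ p * opt (Fred p q β d t ε I) + 6 * (5 * p + 1) * ε * (I.length * t)) := by
  obtain ⟨hdist, hocc⟩ := hI
  have hdist' := dbl_dist I hdist
  have hk : ∀ v : VV (dbl I), kJ (dbl I) v ≤ d := by
    intro v
    refine (kJ_le (dbl I) hdist' v).trans ?_
    rw [occurrences_dbl]
    exact hocc _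
  have hne' : ∀ v : VV (dbl I), Nonempty (AmpK p q (kJ (dbl I) v) t β ε) := fun v =>
    hamp _ (kJ_pos _ v) (hk v)
  have htab : ∀ v : VV (dbl I),
      (table p q d t β ε).getD (kJ (dbl I) v) [] = tmpl (toAmp (hne' v).some) :=
    fun v => table_getD p q d t β ε _ (hk v) (hne' v)
  have hcost : costJ (dbl I) t β = (24 * β + 58) * (I.length * t) := by
    unfold costJ
    rw [dbl_length, dbl_even, dbl_odd]
    ring
  constructor
  · obtain ⟨y, hy⟩ := exists_minViolated I
    have h := G_upper (dbl I) (table p q d t β ε) t β (fun v => toAmp (hne' v).some) htab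
      (fun n => if n % 2 = 0 then y (n / 2) else !(y (n / 2)))
    rw [violated_dbl_of, hy, hcost, dbl_length] at h
    unfold Fred
    calc _ ≤ _ := h
      _ = _ := by ring
  · have hlen : 0 < I.length := List.length_pos_iff.2 hne
    obtain ⟨x, hx⟩ := G_lower (dbl I) (table p q d t β ε) t β (fun v => (hne' v).some) hqp htab
      hβ hdist' (by rw [dbl_length]; omega) ht
    rw [hcost, violated_dbl, dbl_length] at hx
    have h1 : (minViolated I : ℝ) ≤ (violated (fun v => x (2 * v)) I : ℕ) := by
      exact_mod_cast minViolated_le I _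
    have h2 : (minViolated I : ℝ) ≤ (violated (fun v => !(x (2 * v + 1))) I : ℕ) := by
      exact_mod_cast minViolated_le I _
    have ht' : (0 : ℝ) ≤ q * t := by positivity
    have h3 := mul_le_mul_of_nonneg_left h1 ht'
    have h4 := mul_le_mul_of_nonneg_left h2 ht'
    unfold Fred
    push_cast at hx ⊢
    linarith

end Vale.Agent.P333.R2.H141
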