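import Mathlib
import Vale.Agent.P333.R2.H141.Red

/-!
The gap reduction and its consequence for approximation algorithms, given amplifiers with a
factor `p / q` and `β + 1` blocks per contact (P333).
-/

namespace Vale.Agent.P333.R2.H141

open Vale.Agent.P333 Vale.Agent.P333.R2.H99 Vale.Agent.Lib.PolyTime

/-- Amplifiers with `β + 1` blocks per contact and factor `p / q` exist. -/
def AmpsExistB (p q β : ℕ) : Prop :=
  ∀ ε : ℝ, 0 < ε → ∀ k : ℕ, 1 ≤ k → ∃ t0 : ℕ, ∀ t, t0 ≤ t → Nonempty (AmpK p q k t β ε)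

theorem ampsExistB_of {p q : ℕ} (h : AmpsExistK p q) : AmpsExistB p q 2 := h

theorem PT_Fred {A : Set Word} (p q β d t : ℕ) (ε : ℝ) : PT A (Fred p q β d t ε) :=
  PT.comp (g := fun J : List Eqn => G (table p q d t β ε) t β J) (PT_G _ t β) PT_dbl

theorem Fred_nil (p q β d t : ℕ) (ε : ℝ) : Fred p q β d t ε [] = [] := rfl

theorem exists_t {p q β : ℕ} (hamp : AmpsExistB p q β) (ε : ℝ) (hε : 0 < ε) (d : ℕ) :
    ∃ t0 : ℕ, ∀ t, t0 ≤ t → ∀ K, 1 ≤ K → K ≤ d → Nonempty (AmpK p q K t β ε) := by
  induction d with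
  | zero => exact ⟨0, fun t _ K h1 h2 => by omega⟩
  | succ d ih =>
    obtain ⟨t0, h0⟩ := ih
    obtain ⟨t1, h1⟩ := hamp ε hε (d + 1) (by omega)
    refine ⟨max t0 t1, fun t ht K hK1 hK2 => ?_⟩
    rcases Nat.lt_or_ge K (d + 1) with h | h
    · exact h0 t (le_trans (le_max_left _ _) ht) K hK1 (by omega)
    · have : K = d + 1 := by omega
      subst this
      exact h1 t (le_trans (le_max_right _ _) ht)

/-- The gap reduction: `C = 24 β + 58`. -/
theorem reduction {p q : ℕ} (hq : 0 < q) (hqp : q ≤ p) {β : ℕ} (hβ : 1 ≤ β)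
    (hamp : AmpsExistB p q β) (ε : ℝ) (hε : 0 < ε) (d : ℕ) :
    ∃ (t : ℕ) (f : List Eqn → List (List ℕ)), 0 < t ∧ PolyTime systemW familyW f ∧
      ∀ I, Bounded d I →
        (opt (f I) : ℝ) ≤ t * ((24 * β + 58) * I.length + 2 * minViolated I)
          + ε * (t * I.length) ∧
        t * ((24 * β + 58) * I.length + 2 * ((q : ℝ) / p) * minViolated I)
          - ε * (t * I.length) ≤ opt (f I) := by
  have hp0 : (0 : ℝ) < p := by
    have : 0 < p := by omega
    exact_mod_cast this
  have hpε : (0 : ℝ) < 6 * (5 * p + 1) := by positivity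
  set δ : ℝ := ε / (6 * (5 * p + 1)) with hδ
  have hδ0 : 0 < δ := by positivity
  obtain ⟨t0, ht0⟩ := exists_t hamp δ hδ0 d
  obtain ⟨t1, ht1⟩ := exists_nat_gt (7 / ε)
  have ht1' : 7 < ε * t1 := by
    rw [div_lt_iff₀ hε] at ht1
    linarith
  refine ⟨max t0 t1 + 1, Fred p q β d (max t0 t1 + 1) δ, by omega, ?_, ?_⟩
  · have h1 : PolyTime enc enc (Fred p q β d (max t0 t1 + 1) δ) :=
      polyTime_of_PT (PT_Fred _ _ _ _ _ _)
    have h2 : systemW = (enc : List Eqn → Word) := funext systemW_eq
    have h3 : familyW = (enc : List (List ℕ) → Word) := funext familyW_eq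
    rw [h2, h3]
    exact h1
  · intro I hI
    by_cases hne : I = []
    · subst hne
      rw [Fred_nil, opt_nil, minViolated_nil]
      simp
    · obtain ⟨hup, hlo⟩ := Fred_bounds p q hqp β hβ d (max t0 t1 + 1) δ (by omega)
        (fun K h1 h2 => ht0 _ (by have := le_max_left t0 t1; omega) K h1 h2) I hI hne
      set t : ℕ := max t0 t1 + 1 with ht
      have hm : (1 : ℝ) ≤ I.length := by
        have : 1 ≤ I.length := List.length_pos_iff.2 hne
        exact_mod_cast this
      have htt : 7 ≤ ε * t := by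
        have h1 : t1 ≤ t := by have := le_max_right t0 t1; omega
        have h2 : (t1 : ℝ) ≤ t := by exact_mod_cast h1
        have h3 := mul_le_mul_of_nonneg_left h2 hε.le
        linarith only [ht1', h3]
      have hup' : (opt (Fred p q β d t δ I) : ℝ) ≤ (24 * β + 58) * (I.length * t)
          + (6 * I.length + 1 + 2 * t * minViolated I) := by exact_mod_cast hup
      have hδε : 6 * (5 * (p : ℝ) + 1) * δ = ε := by
        rw [hδ]; field_simp
      rw [hδε] at hlo
      constructor
      · nlinarith only [hm, hup', htt]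
      · have h5 : (t : ℝ) * ((24 * β + 58) * I.length + 2 * ((q : ℝ) / p) * minViolated I)
            - ε * (t * I.length) / p ≤ opt (Fred p q β d t δ I) := by
          have h6 : (p : ℝ) * ((t : ℝ) * ((24 * β + 58) * I.length
              + 2 * ((q : ℝ) / p) * minViolated I) - ε * (t * I.length) / p)
              ≤ p * opt (Fred p q β d t δ I) := by
            have h7 : (p : ℝ) * ((t : ℝ) * ((24 * β + 58) * I.length
              + 2 * ((q : ℝ) / p) * minViolated I) - ε * (t * I.length) / p)
              = p * ((24 * β + 58) * (I.length * t)) + q * (2 * t * minViolated I)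
                - ε * (I.length * t) := by
              field_simp
            rw [h7]
            linarith only [hlo]
          exact le_of_mul_le_mul_left h6 hp0
        have h8 : ε * (t * I.length) / p ≤ ε * (t * I.length) := by
          have h9 : (1 : ℝ) ≤ p := by
            have : 1 ≤ p := by omega
            exact_mod_cast this
          have h10 : (0 : ℝ) ≤ ε * (t * I.length) := by positivity
          exact div_le_self h10 h9
        linarith only [h5, h8]

/-- A polynomial time `ρ`-approximation with `ρ < 1 + q / (C p)` decides the gap problem. -/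
theorem approx_gap {p q : ℕ} (hq : 0 < q) (hqp : q ≤ p) {β : ℕ} (hβ : 1 ≤ β)
    (hamp : AmpsExistB p q β) (ρ : ℝ)
    (hρ : ρ < 1 + (q : ℝ) / (p * (24 * β + 58))) :
    ∃ ε : ℝ, 0 < ε ∧ ε < 1 / 4 ∧ (HasApprox ρ → ∀ d : ℕ, GapDecidable ε d) := by
  have hp0 : (0 : ℝ) < p := by
    have : 0 < p := by omega
    exact_mod_cast this
  have hq0 : (0 : ℝ) < q := by exact_mod_cast hq
  set C : ℝ := 24 * β + 58 with hC
  have hC0 : (0 : ℝ) < C := by positivity
  set r : ℝ := (q : ℝ) / p with hr
  have hr0 : 0 < r := by positivity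
  have hr1 : r ≤ 1 := by
    rw [hr, div_le_one hp0]
    exact_mod_cast hqp
  have hρr : 1 + (q : ℝ) / (p * C) = (C + r) / C := by
    rw [hr]; field_simp
  rw [hρr] at hρ
  have hone : (1 : ℝ) < (C + r) / C := by
    rw [lt_div_iff₀ hC0]; linarith
  obtain ⟨ρ', hρρ', hρ'1, hρ'2⟩ : ∃ ρ', ρ ≤ ρ' ∧ 1 ≤ ρ' ∧ ρ' < (C + r) / C :=
    ⟨max ρ 1, le_max_left _ _, le_max_right _ _, max_lt hρ hone⟩
  rw [lt_div_iff₀ hC0] at hρ'2
  have hC58 : (58 : ℝ) ≤ C := by
    rw [hC]
    have : (0 : ℝ) ≤ 24 * β := by positivity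
    linarith
  have hρ'3 : ρ' < 2 := by
    by_contra h
    push Not at h
    nlinarith
  set ε : ℝ := (C + r - C * ρ') / 10 with hε
  have hε0 : 0 < ε := by rw [hε]; linarith only [hρ'2]
  have hε1 : ε < 1 / 4 := by
    rw [hε]
    have : C * 1 ≤ C * ρ' := mul_le_mul_of_nonneg_left hρ'1 hC0.le
    linarith only [this, hr1]
  refine ⟨ε, hε0, hε1, fun ha d => ?_⟩
  obtain ⟨alg, halg, hS⟩ := GapDecidable_mono_rho hρρ' ha
  obtain ⟨t, f, ht, hf, hgap⟩ := reduction hq hqp hβ hamp ε hε0 d
  -- the threshold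
  have hlt : ρ' * (C + 3 * ε) < C + r - 3 * ε := by nlinarith only [hε, hρ'2, hρ'3, hε0]
  obtain ⟨s, hs1, hs2⟩ := exists_rat_btwn hlt
  have hs0 : (0 : ℝ) < s := lt_of_le_of_lt (by (clear * - hρ'1 hε0 hC0; positivity)) hs1
  have hs0' : 0 < s := by exact_mod_cast hs0
  obtain ⟨N, hN⟩ : ∃ N : ℕ, (N : ℤ) = s.num := ⟨s.num.toNat, Int.toNat_of_nonneg
    (Rat.num_nonneg.2 hs0'.le)⟩
  have hrND : (s : ℝ) = N / s.den := by
    have h1 : (s : ℝ) = (s.num : ℝ) / (s.den : ℝ) := by exact_mod_cast (Rat.num_div_den s).symm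
    rw [h1, ← hN]
    push_cast
    rfl
  have hD : (0 : ℝ) < s.den := by exact_mod_cast s.den_pos
  have hrD : (s : ℝ) * s.den = N := by rw [hrND]; (clear * -; field_simp)
  refine ⟨fun I => decide ((alg (f I)).length * s.den < N * (t * I.length)), ?_, ?_⟩
  · have h2 : systemW = (enc : List Eqn → Word) := funext systemW_eq
    have h3 : familyW = (enc : List (List ℕ) → Word) := funext familyW_eq
    have h4 : stringW = (enc : List ℕ → Word) := funext stringW_eq
    have h5 : (fun b : Bool => [b]) = (enc : Bool → Word) := rfl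
    rw [h2, h3] at hf
    rw [h3, h4] at halg
    rw [h2, h5]
    have hf' : PT ∅ f := PT_of_polyTime hf
    have halg' : PT ∅ alg := PT_of_polyTime halg
    have hc : PT ∅ (fun I : List Eqn => alg (f I)) := halg'.comp hf'
    exact polyTime_of_PT (PT.lt (PT.mul hc.length (PT.const s.den))
      (PT.mul (PT.const N) (PT.mul (PT.const t) (PT.length PT.id))))
  · intro I hne hI
    have hm : (0 : ℝ) < I.length := by
      have : 0 < I.length := List.length_pos_iff.2 hne
      exact_mod_cast this
    have ht' : (0 : ℝ) < t := by exact_mod_cast ht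
    have htm : 0 < t * (I.length : ℝ) := mul_pos ht' hm
    obtain ⟨hb2, hb1⟩ := hgap I hI
    constructor
    · intro hmin
      rw [decide_eq_true_eq]
      have h1 : (opt (f I) : ℝ) ≤ t * I.length * (C + 3 * ε) := by
        have h0 := mul_le_mul_of_nonneg_left hmin ht'.le
        linarith only [hb2, h0]
      have h2 : ((alg (f I)).length : ℝ) ≤ ρ' * (t * I.length * (C + 3 * ε)) :=
        (hS (f I)).2.trans (mul_le_mul_of_nonneg_left h1 (by linarith only [hρ'1]))
      have h3 : ρ' * (t * I.length * (C + 3 * ε)) < t * I.length * s := by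
        have := mul_lt_mul_of_pos_left hs1 htm
        linarith only [this]
      have h4 : ((alg (f I)).length : ℝ) * s.den < N * (t * I.length) := by
        rw [← hrD]
        have := mul_lt_mul_of_pos_right (h2.trans_lt h3) hD
        linarith only [this]
      exact_mod_cast h4
    · intro hmin
      rw [decide_eq_false_iff_not, not_lt]
      have h1 : t * I.length * (C + r - 3 * ε) ≤ (opt (f I) : ℝ) := by
        have h0 := mul_le_mul_of_nonneg_left hmin
          (mul_nonneg ht'.le (mul_nonneg (by norm_num : (0 : ℝ) ≤ 2) hr0.le))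
        have h9 : ε * (t * I.length) * r ≤ ε * (t * I.length) * 1 :=
          mul_le_mul_of_nonneg_left hr1 (by positivity)
        nlinarith only [hb1, h0, h9]
      have h2 : (opt (f I) : ℝ) ≤ ((alg (f I)).length : ℝ) := by
        exact_mod_cast opt_le (hS (f I)).1
      have h3 : t * I.length * s < t * I.length * (C + r - 3 * ε) :=
        mul_lt_mul_of_pos_left hs2 htm
      have h4 : (N : ℝ) * (t * I.length) ≤ ((alg (f I)).length : ℝ) * s.den := by
        rw [← hrD]
        have := mul_le_mul_of_nonneg_right (h3.le.trans (h1.trans h2)) hD.le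
        linarith only [this]
      exact_mod_cast h4

end Vale.Agent.P333.R2.H141
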