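import Mathlib
import Vale.Agent.P333.NP.Main
import Vale.Agent.P333.R2.H141.Gap

/-!
NP-hardness of the approximation of the shortest common superstring with every ratio below
`1 + q / (p (24 β + 58))`, given amplifiers with a factor `p / q` and `β + 1` blocks per contact.
-/

namespace Vale.Agent.P333.R2.H141

open Vale.Agent.Lib.PCP Vale.Agent.Lib.PolyTime Vale.Agent.P333 Vale.Agent.P333.NP
  Vale.Agent.P333.R2.H99

/-- A better approximation implies that NP equals P. -/
theorem np_eq_p {p q : ℕ} (hq : 0 < q) (hqp : q ≤ p) {β : ℕ} (hβ : 1 ≤ β)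
    (hamp : AmpsExistB p q β) (ρ : ℝ) (hρ : ρ < 1 + (q : ℝ) / (p * (24 * β + 58)))
    (h : HasApprox ρ) : classNP = classP := by
  obtain ⟨ε, h0, _, h2⟩ := approx_gap hq hqp hβ hamp ρ hρ
  exact Set.Subset.antisymm (gapDecidable_imp h0 (h2 h)) classP_subset

/-- NP-hardness of the approximation of the shortest common superstring. -/
theorem np_hard {p q : ℕ} (hq : 0 < q) (hqp : q ≤ p) {β : ℕ} (hβ : 1 ≤ β)
    (hamp : AmpsExistB p q β) (ρ : ℝ) (hρ : ρ < 1 + (q : ℝ) / (p * (24 * β + 58)))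
    (L : Set (List Bool)) (hL : L ∈ classNP) :
    ∃ (f : List Bool → List (List ℕ)) (k : List Bool → ℕ),
      PolyTime (fun w : List Bool => w) familyW f ∧ PolyTime (fun w : List Bool => w) Nat.bits k ∧
      ∀ x, (x ∈ L → opt (f x) ≤ k x) ∧ (x ∉ L → ρ * k x < opt (f x)) := by
  have hp0 : (0 : ℝ) < p := by
    have : 0 < p := by omega
    exact_mod_cast this
  have hq0 : (0 : ℝ) < q := by exact_mod_cast hq
  set C : ℝ := 24 * β + 58 with hC
  have hC0 : (0 : ℝ) < C := by positivity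
  set r : ℝ := (q : ℝ) / p with hr
  have hr0 : 0 < r := by positivity
  have hr1 : r ≤ 1 := by
    rw [hr, div_le_one hp0]
    exact_mod_cast hqp
  have hρr : 1 + (q : ℝ) / (p * C) = (C + r) / C := by
    rw [hr]; field_simp
  rw [hρr] at hρ
  have hone : (1 : ℝ) < (C + r) / C := by
    rw [lt_div_iff₀ hC0]; linarith
  obtain ⟨ρ', hρρ', hρ'1, hρ'2⟩ : ∃ ρ', ρ ≤ ρ' ∧ 1 ≤ ρ' ∧ ρ' < (C + r) / C :=
    ⟨max ρ 1, le_max_left _ _, le_max_right _ _, max_lt hρ hone⟩
  rw [lt_div_iff₀ hC0] at hρ'2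
  have hC58 : (58 : ℝ) ≤ C := by
    rw [hC]
    have : (0 : ℝ) ≤ 24 * β := by positivity
    linarith
  have hρ'3 : ρ' < 2 := by
    by_contra h
    push Not at h
    nlinarith
  set ε : ℝ := (C + r - C * ρ') / 10 with hε
  have hε0 : 0 < ε := by rw [hε]; linarith only [hρ'2]
  obtain ⟨d, Φ, g, hg, hg', hΦ⟩ := np_gap hL hε0
  obtain ⟨t, f, ht, ⟨Mf⟩, hgap⟩ := reduction hq hqp hβ hamp ε hε0 d
  obtain ⟨W, hW, hW'⟩ := exists_FP_of_tm2 (A := ∅) Mf
  have hlt : ρ' * (C + 3 * ε) < C + r - 3 * ε := by nlinarith only [hε, hρ'2, hρ'3, hε0]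
  have hlt2 : C + 3 * ε < (C + r - 3 * ε) / ρ' := by
    rw [lt_div_iff₀ (by linarith)]
    linarith
  obtain ⟨s, hq1, hq2⟩ := exists_rat_btwn hlt2
  have hs0 : (0 : ℝ) < s := lt_of_le_of_lt (by positivity) hq1
  have hs0' : 0 < s := by exact_mod_cast hs0
  obtain ⟨N, hN⟩ : ∃ N : ℕ, (N : ℤ) = s.num := ⟨s.num.toNat, Int.toNat_of_nonneg
    (Rat.num_nonneg.2 hs0'.le)⟩
  have hD : (0 : ℝ) < s.den := by exact_mod_cast s.den_pos
  have hqN : (s : ℝ) * s.den = N := by
    have h1 : (s : ℚ) * s.den = s.num := Rat.mul_den_eq_num s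
    have h2 : ((s : ℝ)) * (s.den : ℝ) = (s.num : ℝ) := by exact_mod_cast h1
    rw [h2, ← hN]
    simp
  -- the bound
  have hPTk : PT ∅ (fun I : List Eqn => t * I.length * N / s.den) :=
    PT.div (((PT.const t).mul PT.id.length).mul (PT.const N)) (PT.const s.den)
  obtain ⟨K, hK, hK'⟩ := hPTk
  refine ⟨fun x => f (Φ x), fun x => t * (Φ x).length * N / s.den, ?_, ?_, ?_⟩
  · refine tm2_of_polyTimeFun _ _ _ (fun x => W (g x)) (polyTimeFun_iff.2 (hW.comp hg)) fun x => ?_
    rw [hg', ← systemW_eq]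
    exact hW' _
  · refine tm2_of_polyTimeFun _ _ _ (fun x => K (g x)) (polyTimeFun_iff.2 (hK.comp hg)) fun x => ?_
    rw [hg', hK']
    rfl
  · intro x
    obtain ⟨h1, h2, h3, h4⟩ := hΦ x
    obtain ⟨hb2, hb1⟩ := hgap (Φ x) h2
    have hm : (0 : ℝ) < (Φ x).length := by
      have := List.length_pos_iff.2 h1
      exact_mod_cast this
    have htr : (0 : ℝ) < t := by exact_mod_cast ht
    have htm : (0 : ℝ) < t * (Φ x).length := by positivity
    have hkr : ((t * (Φ x).length * N / s.den : ℕ) : ℝ) ≤ s * (t * (Φ x).length) := by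
      refine (Nat.cast_div_le (α := ℝ)).trans ?_
      rw [div_le_iff₀ hD]
      push_cast
      rw [← hqN]
      apply le_of_eq
      ring
    refine ⟨fun hx => ?_, fun hx => ?_⟩
    · rw [Nat.le_div_iff_mul_le s.den_pos]
      have h6 := h3 hx
      have h7 : (opt (f (Φ x)) : ℝ) ≤ s * (t * (Φ x).length) := by
        have h8 : (opt (f (Φ x)) : ℝ) ≤ (C + 3 * ε) * (t * (Φ x).length) := by
          have h9 := mul_le_mul_of_nonneg_left h6 htr.le
          linarith only [hb2, h9]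
        exact h8.trans (mul_le_mul_of_nonneg_right hq1.le htm.le)
      have h10 : (opt (f (Φ x)) : ℝ) * s.den ≤ t * (Φ x).length * N := by
        rw [← hqN]
        nlinarith [mul_le_mul_of_nonneg_right h7 hD.le]
      exact_mod_cast h10
    · have h6 := h4 hx
      have h8 : (C + r - 3 * ε) * (t * (Φ x).length) ≤ (opt (f (Φ x)) : ℝ) := by
        have h9 := mul_le_mul_of_nonneg_left h6
          (mul_nonneg htr.le (mul_nonneg (by norm_num : (0 : ℝ) ≤ 2) hr0.le))
        have h10 : ε * (t * (Φ x).length) * r ≤ ε * (t * (Φ x).length) * 1 :=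
          mul_le_mul_of_nonneg_left hr1 (by positivity)
        nlinarith only [hb1, h9, h10]
      have hk0 : (0 : ℝ) ≤ ((t * (Φ x).length * N / s.den : ℕ) : ℝ) := Nat.cast_nonneg _
      calc ρ * ((t * (Φ x).length * N / s.den : ℕ) : ℝ)
          ≤ ρ' * ((t * (Φ x).length * N / s.den : ℕ) : ℝ) := mul_le_mul_of_nonneg_right hρρ' hk0
        _ ≤ ρ' * (s * (t * (Φ x).length)) := mul_le_mul_of_nonneg_left hkr (by linarith)
        _ = (ρ' * s) * (t * (Φ x).length) := by ring
        _ < (C + r - 3 * ε) * (t * (Φ x).length) := by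
            refine mul_lt_mul_of_pos_right ?_ htm
            rw [lt_div_iff₀ (by linarith)] at hq2
            linarith
        _ ≤ _ := h8

end Vale.Agent.P333.R2.H141
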