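import Mathlib
import Vale.Agent.P333.Y.Final
import Vale.Agent.P333.R2.H141.Main

/-!
The final statement for three blocks per contact, given amplifiers with a factor `p / q`.
-/

namespace Vale.Agent.P333.R2.H141

open Vale.Agent.P333 Vale.Agent.P333.R2.H99

theorem thr {p q : ℕ} : 1 + (q : ℝ) / (106 * p) = 1 + (q : ℝ) / (p * (24 * (2 : ℕ) + 58)) := by
  norm_num
  rw [mul_comm]

/-- Three blocks per contact. -/
theorem np_eq_p3 {p q : ℕ} (hq : 0 < q) (hqp : q ≤ p) (hamp : AmpsExistK p q) (ρ : ℝ)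
    (hρ : ρ < 1 + (q : ℝ) / (106 * p)) (h : HasApprox ρ) : classNP = classP :=
  np_eq_p hq hqp (β := 2) (by norm_num) hamp ρ (by rwa [thr] at hρ) h

/-- Three blocks per contact. -/
theorem np_hard3 {p q : ℕ} (hq : 0 < q) (hqp : q ≤ p) (hamp : AmpsExistK p q) (ρ : ℝ)
    (hρ : ρ < 1 + (q : ℝ) / (106 * p)) (L : Set (List Bool)) (hL : L ∈ classNP) :
    ∃ (f : List Bool → List (List ℕ)) (k : List Bool → ℕ),
      PolyTime (fun w : List Bool => w) familyW f ∧ PolyTime (fun w : List Bool => w) Nat.bits k ∧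
      ∀ x, (x ∈ L → opt (f x) ≤ k x) ∧ (x ∉ L → ρ * k x < opt (f x)) :=
  np_hard hq hqp (β := 2) (by norm_num) hamp ρ (by rwa [thr] at hρ) L hL

/-- The complete statement (ratio two and the lower bound) from amplifiers. -/
theorem result_of {p q : ℕ} (hq : 0 < q) (hqp : q ≤ p) (hamp : AmpsExistK p q) :
    HasApprox 2 ∧
    (∀ ρ : ℝ, 2 ≤ ρ → HasApprox ρ) ∧
    (∀ ρ : ℝ, ρ < 1 + (q : ℝ) / (106 * p) → HasApprox ρ → classNP = classP) ∧
    bestRatio ≤ 2 ∧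
    (classNP ≠ classP → 1 + (q : ℝ) / (106 * p) ≤ bestRatio) ∧
    (∀ ρ : ℝ, ρ < 1 + (q : ℝ) / (106 * p) → ∀ L ∈ classNP,
      ∃ (f : List Bool → List (List ℕ)) (k : List Bool → ℕ),
        PolyTime (fun w : List Bool => w) familyW f ∧
        PolyTime (fun w : List Bool => w) Nat.bits k ∧
        ∀ x, (x ∈ L → opt (f x) ≤ k x) ∧ (x ∉ L → ρ * k x < opt (f x))) :=
  ⟨Y.hasApprox_two, fun _ hr => G.hasApprox_mono hr Y.hasApprox_two,
    fun ρ hρ h => np_eq_p3 hq hqp hamp ρ hρ h,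
    NP.bestRatio_le Y.hasApprox_two,
    fun hne => NP.le_bestRatio ⟨_, Y.hasApprox_two⟩
      fun ρ hρ hr => hne (np_eq_p3 hq hqp hamp ρ hρ hr),
    fun ρ hρ L hL => np_hard3 hq hqp hamp ρ hρ L hL⟩

end Vale.Agent.P333.R2.H141
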