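import Mathlib
import Vale.Agent.P333.R2.H141.Final

/-!
The statement of the hand-in `Approx2NP108` from amplifiers with the factor `107 / 106`.
-/

namespace Vale.Agent.P333.R2.H141

open Vale.Agent.P333 Vale.Agent.P333.R2.H99

/-- The complete statement (ratio two and the lower bound `108 / 107`) from amplifiers with the
factor `107 / 106`. -/
theorem result108 (hamp : AmpsExistK 107 106) :
    HasApprox 2 ∧
    (∀ ρ : ℝ, 2 ≤ ρ → HasApprox ρ) ∧
    (∀ ρ : ℝ, ρ < 108 / 107 → HasApprox ρ → classNP = classP) ∧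
    bestRatio ≤ 2 ∧
    (classNP ≠ classP → 108 / 107 ≤ bestRatio) ∧
    (∀ ρ : ℝ, ρ < 108 / 107 → ∀ L ∈ classNP,
      ∃ (f : List Bool → List (List ℕ)) (k : List Bool → ℕ),
        PolyTime (fun w : List Bool => w) familyW f ∧
        PolyTime (fun w : List Bool => w) Nat.bits k ∧
        ∀ x, (x ∈ L → opt (f x) ≤ k x) ∧ (x ∉ L → ρ * k x < opt (f x))) := by
  have h := result_of (p := 107) (q := 106) (by norm_num) (by norm_num) hamp
  have e : 1 + ((106 : ℕ) : ℝ) / (106 * (107 : ℕ)) = 108 / 107 := by norm_num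
  rwa [e] at h

end Vale.Agent.P333.R2.H141
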